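import Vale.Agent.P235.Defs
import Vale.Agent.P235.Main
import Vale.Agent.P235.TD

namespace Vale.Agent.Results.P235.Treewidth

open Vale.Agent.P235

theorem result : ∀ k : ℕ, ∃ C : ℝ, ∀ (V : Type) [Fintype V] (G : SimpleGraph V),
    G.Connected → TreewidthLE G k → ∀ len : Sym2 V → ℝ, (∀ e ∈ G.edgeSet, 0 < len e) →
      EmbedsL1 (pathDist G len) C := by
  intro k
  obtain ⟨c, K, hc, h⟩ := main_elim k
  refine ⟨K / c, fun V _ G hG hk len hlen => ?_⟩
  obtain ⟨M, hM, ⟨E⟩⟩ := exists_elim G hG k hk len hlen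
  obtain ⟨ρ, h1, h2, h3⟩ := @h V M _ E
  exact embeds_of_cut _ ρ h1 c K hc (fun x y => hM x y ▸ h2 x y) (fun x y => hM x y ▸ h3 x y)

end Vale.Agent.Results.P235.Treewidth
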